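import Vale.Agent.P134.H491.Hyp

set_option linter.all false

/-! P134, rows (i) and (ii): the weighted inequality `(K)` for a pair of solutions of the
linearised equation which are rotated into each other by a Killing field, and the Hardy type
vanishing theorem. -/

namespace Vale.Agent.P134.H775

open Vale.Agent.P134 Vale.Agent.P134.SM MeasureTheory Filter Topology

variable {n : ℕ} {u V φ ψ η : (Fin n → ℝ) → ℝ}

/-- Stability on `C¹` test functions. -/
def Stb (V : (Fin n → ℝ) → ℝ) : Prop := ∀ ξ : (Fin n → ℝ) → ℝ, ContDiff ℝ 1 ξ →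
  HasCompactSupport ξ → 0 ≤ ∫ x, (gs ξ x + V x * ξ x ^ 2)

lemma continuous_gs (hη : ContDiff ℝ 1 η) : Continuous (gs η) := by
  unfold gs
  exact continuous_finsetSum _ fun j _ => (continuous_pd hη).pow 2

lemma hcs_gs (hc : HasCompactSupport η) : HasCompactSupport (gs η) := by
  refine HasCompactSupport.intro hc fun x hx => ?_
  unfold gs
  refine Finset.sum_eq_zero fun j _ => ?_
  rw [pd_eq_zero_of_notMem_tsupport hx]; ring

lemma integrable_gs (hη : ContDiff ℝ 1 η) (hc : HasCompactSupport η) : Integrable (gs η) :=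
  (continuous_gs hη).integrable_of_hasCompactSupport (hcs_gs hc)

lemma exists_box_tsupport (hc : HasCompactSupport η) : ∃ R : ℝ, 0 < R ∧ tsupport η ⊆ box n R := by
  obtain ⟨T, hT⟩ := hc.isBounded.exists_norm_le
  refine ⟨max T 1, lt_max_of_lt_right one_pos, fun x hx => ?_⟩
  rw [mem_box]
  intro i
  exact ((norm_le_pi_norm x i).trans (hT x hx)).trans (le_max_left _ _)

/-- Approximate Riccati fields give stability. -/
theorem stb_of_hypN {C : ℝ} (hV : Continuous V) (h : H491.HypN n C V) : Stb V := by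
  intro ξ hξ hc
  obtain ⟨R, hR, hsub⟩ := exists_box_tsupport hc
  have hξ2 : ContDiff ℝ 1 (fun x => ξ x ^ 2) := hξ.pow 2
  have hc2 : HasCompactSupport (fun x => ξ x ^ 2) := hcs_sq hc
  have iM : Integrable (fun x => ξ x ^ 2) := hξ2.continuous.integrable_of_hasCompactSupport hc2
  have iV : Integrable (fun x => V x * ξ x ^ 2) :=
    (hV.mul hξ2.continuous).integrable_of_hasCompactSupport hc2.mul_left
  have iG := integrable_gs hξ hc
  have key : ∀ ε : ℝ, 0 < ε → -(ε * ∫ x, ξ x ^ 2) ≤ ∫ x, (gs ξ x + V x * ξ x ^ 2) := by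
    intro ε hε
    obtain ⟨X, h1, -, h3⟩ := h R ε hR hε
    have iX : ∀ j, Integrable (fun x => X j x * pd j (fun y => ξ y ^ 2) x) := fun j =>
      ((h1 j).continuous.mul (continuous_pd hξ2)).integrable_of_hasCompactSupport
        (hasCompactSupport_pd hc2).mul_left
    have iD : ∀ j, Integrable (fun x => pd j (X j) x * ξ x ^ 2) := fun j =>
      ((continuous_pd (h1 j)).mul hξ2.continuous).integrable_of_hasCompactSupport hc2.mul_left
    have e1 : ∀ j, ∫ x, X j x * pd j (fun y => ξ y ^ 2) x = - ∫ x, pd j (X j) x * ξ x ^ 2 :=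
      fun j => integral_mul_pd (h1 j) hξ2 hc2
    have iXD : ∀ j, Integrable
        (fun x => X j x * pd j (fun y => ξ y ^ 2) x + pd j (X j) x * ξ x ^ 2) := fun j =>
      (iX j).add (iD j)
    have e2 : ∫ x, ∑ j, (X j x * pd j (fun y => ξ y ^ 2) x + pd j (X j) x * ξ x ^ 2) = 0 := by
      rw [integral_finsetSum _ fun j _ => iXD j]
      refine Finset.sum_eq_zero fun j _ => ?_
      rw [integral_add (iX j) (iD j), e1 j]; ring
    have iS : Integrable
        (fun x => ∑ j, (X j x * pd j (fun y => ξ y ^ 2) x + pd j (X j) x * ξ x ^ 2)) :=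
      integrable_finsetSum _ fun j _ => iXD j
    have iN : Integrable (fun x => -(ε * ξ x ^ 2)) := (iM.const_mul ε).neg
    have e3 : -(ε * ∫ x, ξ x ^ 2) = ∫ x, (-(ε * ξ x ^ 2)
        + ∑ j, (X j x * pd j (fun y => ξ y ^ 2) x + pd j (X j) x * ξ x ^ 2)) := by
      rw [integral_add iN iS, e2, integral_neg, integral_const_mul]; ring
    rw [e3]
    refine integral_mono (iN.add iS) (iG.add iV) fun x => ?_
    show -(ε * ξ x ^ 2) + ∑ j, (X j x * pd j (fun y => ξ y ^ 2) x + pd j (X j) x * ξ x ^ 2)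
      ≤ gs ξ x + V x * ξ x ^ 2
    by_cases hx : x ∈ tsupport ξ
    · have h4 := h3 x (hsub hx)
      have h5 : (∑ j, pd j (X j) x + ∑ j, X j x ^ 2) * ξ x ^ 2 ≤ (V x + ε) * ξ x ^ 2 :=
        mul_le_mul_of_nonneg_right h4 (sq_nonneg _)
      have h6 : ∀ j, X j x * pd j (fun y => ξ y ^ 2) x
          ≤ pd j ξ x ^ 2 + X j x ^ 2 * ξ x ^ 2 := by
        intro j
        rw [pd_sq (hξ.differentiable (by norm_num) x)]
        nlinarith [sq_nonneg (pd j ξ x - X j x * ξ x)]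
      have h7 := Finset.sum_le_sum fun j (_ : j ∈ (Finset.univ : Finset (Fin n))) => h6 j
      rw [Finset.sum_add_distrib, ← Finset.sum_mul] at h7
      rw [Finset.sum_add_distrib, ← Finset.sum_mul]
      rw [add_mul, add_mul] at h5
      unfold gs
      linarith
    · have h4 : ξ x = 0 := image_eq_zero_of_notMem_tsupport hx
      have h5 : ∀ j, X j x * pd j (fun y => ξ y ^ 2) x + pd j (X j) x * ξ x ^ 2 = 0 := by
        intro j
        rw [pd_sq (hξ.differentiable (by norm_num) x), h4]; ring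
      rw [Finset.sum_congr rfl fun j _ => h5 j, h4]
      simp only [Finset.sum_const_zero]
      have := gs_nonneg ξ x
      linarith
  have hM : 0 ≤ ∫ x, ξ x ^ 2 := integral_nonneg fun x => sq_nonneg _
  by_contra hneg
  push Not at hneg
  set A := ∫ x, (gs ξ x + V x * ξ x ^ 2) with hA
  have h8 := key (-A / (2 * ((∫ x, ξ x ^ 2) + 1))) (div_pos (by linarith) (by linarith))
  have h9 : -A / (2 * ((∫ x, ξ x ^ 2) + 1)) * ∫ x, ξ x ^ 2 ≤ -A / 2 := by
    rw [div_mul_eq_mul_div, div_le_div_iff₀ (by linarith) (by norm_num)]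
    nlinarith
  linarith

/-- Test of the stability inequality with `√(ψ² + φ² + δ) η`. -/
theorem K_delta (hψ : ContDiff ℝ 1 ψ) (hφ : ContDiff ℝ 1 φ) (hV : Continuous V)
    (Wψ : WeakLin V ψ) (Wφ : WeakLin V φ) (hs : Stb V) (hη : ContDiff ℝ 1 η)
    (hc : HasCompactSupport η) {δ : ℝ} (hδ : 0 < δ) :
    ∫ x, η x ^ 2 * ((∑ j, (ψ x * pd j φ x - φ x * pd j ψ x) ^ 2) / (ψ x ^ 2 + φ x ^ 2 + δ))
      ≤ (∫ x, (ψ x ^ 2 + φ x ^ 2 + δ) * gs η x) + ∫ x, δ * (V x * η x ^ 2) := by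
  set w : (Fin n → ℝ) → ℝ := fun x => ψ x ^ 2 + φ x ^ 2 + δ with hw
  have hw0 : ∀ x, 0 < w x := fun x => by simp only [hw]; positivity
  have hwc : ContDiff ℝ 1 w := ((hψ.pow 2).add (hφ.pow 2)).add contDiff_const
  set s : (Fin n → ℝ) → ℝ := fun x => Real.sqrt (w x) with hs'
  have hsc : ContDiff ℝ 1 s := hwc.sqrt fun x => (hw0 x).ne'
  have hs2 : ∀ x, s x ^ 2 = w x := fun x => Real.sq_sqrt (hw0 x).le
  have hs0 : ∀ x, 0 < s x := fun x => Real.sqrt_pos.mpr (hw0 x)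
  have dψ : Differentiable ℝ ψ := hψ.differentiable (by norm_num)
  have dφ : Differentiable ℝ φ := hφ.differentiable (by norm_num)
  have dη : Differentiable ℝ η := hη.differentiable (by norm_num)
  have ds : Differentiable ℝ s := hsc.differentiable (by norm_num)
  have hps : ∀ j x, s x * pd j s x = ψ x * pd j ψ x + φ x * pd j φ x := by
    intro j x
    have h1 : pd j (fun y => s y ^ 2) x = 2 * s x * pd j s x := pd_sq (ds x)
    have h2 : (fun y => s y ^ 2) = fun y => (ψ y ^ 2 + φ y ^ 2) + δ := by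
      funext y; rw [hs2]
    have h3 : pd j (fun y => (ψ y ^ 2 + φ y ^ 2) + δ) x
        = 2 * ψ x * pd j ψ x + 2 * φ x * pd j φ x := by
      have d1 : DifferentiableAt ℝ (fun y => ψ y ^ 2) x := (dψ x).pow 2
      have d2 : DifferentiableAt ℝ (fun y => φ y ^ 2) x := (dφ x).pow 2
      have d3 : DifferentiableAt ℝ (fun y => ψ y ^ 2 + φ y ^ 2) x := d1.add d2
      rw [pd_add d3 (differentiableAt_const _), pd_add d1 d2, pd_sq (dψ x), pd_sq (dφ x),
        pd_const]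
      ring
    rw [h2, h3] at h1
    linarith
  set ξ : (Fin n → ℝ) → ℝ := fun x => s x * η x with hξ
  have hξc : ContDiff ℝ 1 ξ := hsc.mul hη
  have hξs : HasCompactSupport ξ := hc.mul_left
  have h0 := hs ξ hξc hξs
  have hη2 : ContDiff ℝ 1 (fun x => η x ^ 2) := hη.pow 2
  have hc2 : HasCompactSupport (fun x => η x ^ 2) := hcs_sq hc
  have hT1c : ContDiff ℝ 1 (fun x => ψ x * η x ^ 2) := hψ.mul hη2
  have hT2c : ContDiff ℝ 1 (fun x => φ x * η x ^ 2) := hφ.mul hη2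
  have hT1s : HasCompactSupport (fun x => ψ x * η x ^ 2) := hc2.mul_left
  have hT2s : HasCompactSupport (fun x => φ x * η x ^ 2) := hc2.mul_left
  have T1 := Wψ _ hT1c hT1s
  have T2 := Wφ _ hT2c hT2s
  have i1 : Integrable (fun x => ∑ j, pd j ψ x * pd j (fun x => ψ x * η x ^ 2) x) :=
    integrable_sum_mul (fun j => continuous_pd hψ) (fun j => continuous_pd hT1c)
      (fun j => hasCompactSupport_pd hT1s)
  have i2 : Integrable (fun x => ∑ j, pd j φ x * pd j (fun x => φ x * η x ^ 2) x) :=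
    integrable_sum_mul (fun j => continuous_pd hφ) (fun j => continuous_pd hT2c)
      (fun j => hasCompactSupport_pd hT2s)
  have i3 : Integrable (fun x => V x * ψ x * (ψ x * η x ^ 2)) :=
    ((hV.mul hψ.continuous).mul hT1c.continuous).integrable_of_hasCompactSupport hT1s.mul_left
  have i4 : Integrable (fun x => V x * φ x * (φ x * η x ^ 2)) :=
    ((hV.mul hφ.continuous).mul hT2c.continuous).integrable_of_hasCompactSupport hT2s.mul_left
  have i5 : Integrable (fun x => gs ξ x + V x * ξ x ^ 2) :=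
    (integrable_gs hξc hξs).add
      ((hV.mul (hξc.continuous.pow 2)).integrable_of_hasCompactSupport (hcs_sq hξs).mul_left)
  have e1 : ∫ x, ((∑ j, pd j ψ x * pd j (fun x => ψ x * η x ^ 2) x)
      + V x * ψ x * (ψ x * η x ^ 2)) = 0 := by
    rw [integral_add i1 i3, T1]; ring
  have e2 : ∫ x, ((∑ j, pd j φ x * pd j (fun x => φ x * η x ^ 2) x)
      + V x * φ x * (φ x * η x ^ 2)) = 0 := by
    rw [integral_add i2 i4, T2]; ring
  have i6 : Integrable (fun x => (ψ x ^ 2 + φ x ^ 2 + δ) * gs η x) :=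
    (hwc.continuous.mul (continuous_gs hη)).integrable_of_hasCompactSupport (hcs_gs hc).mul_left
  have i7 : Integrable (fun x => δ * (V x * η x ^ 2)) :=
    (continuous_const.mul (hV.mul hη2.continuous)).integrable_of_hasCompactSupport
      (hc2.mul_left.mul_left)
  have hcn : Continuous (fun x => (∑ j, (ψ x * pd j φ x - φ x * pd j ψ x) ^ 2)
      / (ψ x ^ 2 + φ x ^ 2 + δ)) :=
    (continuous_finsetSum _ fun j _ => ((hψ.continuous.mul (continuous_pd hφ)).sub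
      (hφ.continuous.mul (continuous_pd hψ))).pow 2).div hwc.continuous fun x => (hw0 x).ne'
  have i8 : Integrable (fun x => η x ^ 2 * ((∑ j, (ψ x * pd j φ x - φ x * pd j ψ x) ^ 2)
      / (ψ x ^ 2 + φ x ^ 2 + δ))) :=
    (hη2.continuous.mul hcn).integrable_of_hasCompactSupport hc2.mul_right
  have h1 : ∫ x, ((gs ξ x + V x * ξ x ^ 2)
      - (((∑ j, pd j ψ x * pd j (fun x => ψ x * η x ^ 2) x) + V x * ψ x * (ψ x * η x ^ 2))
        + ((∑ j, pd j φ x * pd j (fun x => φ x * η x ^ 2) x) + V x * φ x * (φ x * η x ^ 2))))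
      ≤ ∫ x, (((ψ x ^ 2 + φ x ^ 2 + δ) * gs η x + δ * (V x * η x ^ 2))
        - η x ^ 2 * ((∑ j, (ψ x * pd j φ x - φ x * pd j ψ x) ^ 2) / (ψ x ^ 2 + φ x ^ 2 + δ))) := by
    refine integral_mono (i5.sub ((i1.add i3).add (i2.add i4))) ((i6.add i7).sub i8) fun x => ?_
    show (gs ξ x + V x * ξ x ^ 2)
      - (((∑ j, pd j ψ x * pd j (fun x => ψ x * η x ^ 2) x) + V x * ψ x * (ψ x * η x ^ 2))
        + ((∑ j, pd j φ x * pd j (fun x => φ x * η x ^ 2) x) + V x * φ x * (φ x * η x ^ 2)))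
      ≤ ((ψ x ^ 2 + φ x ^ 2 + δ) * gs η x + δ * (V x * η x ^ 2))
        - η x ^ 2 * ((∑ j, (ψ x * pd j φ x - φ x * pd j ψ x) ^ 2) / (ψ x ^ 2 + φ x ^ 2 + δ))
    have dη2 : DifferentiableAt ℝ (fun y => η y ^ 2) x := (dη x).pow 2
    have p1 : ∀ j, pd j (fun x => ψ x * η x ^ 2) x
        = ψ x * (2 * η x * pd j η x) + η x ^ 2 * pd j ψ x := fun j => by
      rw [pd_mul (dψ x) dη2, pd_sq (dη x)]
    have p2 : ∀ j, pd j (fun x => φ x * η x ^ 2) x
        = φ x * (2 * η x * pd j η x) + η x ^ 2 * pd j φ x := fun j => by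
      rw [pd_mul (dφ x) dη2, pd_sq (dη x)]
    have p3 : ∀ j, pd j ξ x = s x * pd j η x + η x * pd j s x := fun j => by
      rw [hξ, pd_mul (ds x) (dη x)]
    have hwx : 0 < ψ x ^ 2 + φ x ^ 2 + δ := hw0 x
    have hs2x : s x ^ 2 = ψ x ^ 2 + φ x ^ 2 + δ := hs2 x
    have q1 : ∀ j, pd j ξ x ^ 2 - (pd j ψ x * pd j (fun x => ψ x * η x ^ 2) x
        + pd j φ x * pd j (fun x => φ x * η x ^ 2) x)
        ≤ (ψ x ^ 2 + φ x ^ 2 + δ) * pd j η x ^ 2
          - η x ^ 2 * ((ψ x * pd j φ x - φ x * pd j ψ x) ^ 2 / (ψ x ^ 2 + φ x ^ 2 + δ)) := by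
      intro j
      have h2 := hps j x
      have h3 : pd j s x ^ 2 = (ψ x * pd j ψ x + φ x * pd j φ x) ^ 2
          / (ψ x ^ 2 + φ x ^ 2 + δ) := by
        rw [eq_div_iff hwx.ne', ← hs2x, ← h2]; ring
      have h4 : (ψ x * pd j ψ x + φ x * pd j φ x) ^ 2 / (ψ x ^ 2 + φ x ^ 2 + δ)
          + (ψ x * pd j φ x - φ x * pd j ψ x) ^ 2 / (ψ x ^ 2 + φ x ^ 2 + δ)
          ≤ pd j ψ x ^ 2 + pd j φ x ^ 2 := by
        rw [← add_div, div_le_iff₀ hwx]
        nlinarith [mul_nonneg hδ.le (sq_nonneg (pd j ψ x)),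
          mul_nonneg hδ.le (sq_nonneg (pd j φ x))]
      have h5 : η x ^ 2 * ((ψ x * pd j ψ x + φ x * pd j φ x) ^ 2 / (ψ x ^ 2 + φ x ^ 2 + δ)
          + (ψ x * pd j φ x - φ x * pd j ψ x) ^ 2 / (ψ x ^ 2 + φ x ^ 2 + δ))
          ≤ η x ^ 2 * (pd j ψ x ^ 2 + pd j φ x ^ 2) := mul_le_mul_of_nonneg_left h4 (sq_nonneg _)
      rw [p3, p1, p2]
      have h6 : (s x * pd j η x + η x * pd j s x) ^ 2
          = (ψ x ^ 2 + φ x ^ 2 + δ) * pd j η x ^ 2
            + 2 * η x * pd j η x * (ψ x * pd j ψ x + φ x * pd j φ x)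
            + η x ^ 2 * ((ψ x * pd j ψ x + φ x * pd j φ x) ^ 2 / (ψ x ^ 2 + φ x ^ 2 + δ)) := by
        rw [← h3, ← h2, ← hs2x]; ring
      rw [h6]
      nlinarith [h5]
    have q2 := Finset.sum_le_sum fun j (_ : j ∈ (Finset.univ : Finset (Fin n))) => q1 j
    rw [Finset.sum_sub_distrib, Finset.sum_sub_distrib, Finset.sum_add_distrib,
      ← Finset.mul_sum, ← Finset.mul_sum, ← Finset.sum_div] at q2
    have h7 : V x * ξ x ^ 2 = V x * (ψ x ^ 2 + φ x ^ 2 + δ) * η x ^ 2 := by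
      rw [hξ]; simp only; rw [mul_pow, hs2x]; ring
    have h8 : gs ξ x = ∑ j, pd j ξ x ^ 2 := rfl
    have h9 : gs η x = ∑ j, pd j η x ^ 2 := rfl
    rw [h7, h8, h9]
    nlinarith [q2]
  have h2 : ∫ x, ((gs ξ x + V x * ξ x ^ 2)
      - (((∑ j, pd j ψ x * pd j (fun x => ψ x * η x ^ 2) x) + V x * ψ x * (ψ x * η x ^ 2))
        + ((∑ j, pd j φ x * pd j (fun x => φ x * η x ^ 2) x) + V x * φ x * (φ x * η x ^ 2))))
      = ∫ x, (gs ξ x + V x * ξ x ^ 2) := by
    have h3 := integral_sub i5 ((i1.add i3).add (i2.add i4))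
    have h4 := integral_add (i1.add i3) (i2.add i4)
    simp only [Pi.add_apply] at h3 h4
    rw [h3, h4, e1, e2]; ring
  have h3 : ∫ x, (((ψ x ^ 2 + φ x ^ 2 + δ) * gs η x + δ * (V x * η x ^ 2))
        - η x ^ 2 * ((∑ j, (ψ x * pd j φ x - φ x * pd j ψ x) ^ 2) / (ψ x ^ 2 + φ x ^ 2 + δ)))
      = (∫ x, (ψ x ^ 2 + φ x ^ 2 + δ) * gs η x) + (∫ x, δ * (V x * η x ^ 2))
        - ∫ x, η x ^ 2 * ((∑ j, (ψ x * pd j φ x - φ x * pd j ψ x) ^ 2)
          / (ψ x ^ 2 + φ x ^ 2 + δ)) := by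
    have h4 := integral_sub (i6.add i7) i8
    have h5 := integral_add i6 i7
    simp only [Pi.add_apply] at h4
    rw [h4, h5]
  rw [h2, h3] at h1
  linarith

/-- **(K)**, abstract form: `P` is any continuous function below
`|ψ∇φ - φ∇ψ|² / (ψ² + φ²)²`. -/
theorem K_ineq (hψ : ContDiff ℝ 1 ψ) (hφ : ContDiff ℝ 1 φ) (hV : Continuous V)
    (Wψ : WeakLin V ψ) (Wφ : WeakLin V φ) (hs : Stb V) (hη : ContDiff ℝ 1 η)
    (hc : HasCompactSupport η) {P : (Fin n → ℝ) → ℝ} (hPc : Continuous P) (hP0 : ∀ x, 0 ≤ P x)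
    (hP : ∀ x, P x * (ψ x ^ 2 + φ x ^ 2) ^ 2 ≤ ∑ j, (ψ x * pd j φ x - φ x * pd j ψ x) ^ 2) :
    ∫ x, (ψ x ^ 2 + φ x ^ 2) * (P x * η x ^ 2) ≤ ∫ x, (ψ x ^ 2 + φ x ^ 2) * gs η x := by
  have hη2 : ContDiff ℝ 1 (fun x => η x ^ 2) := hη.pow 2
  have hc2 : HasCompactSupport (fun x => η x ^ 2) := hcs_sq hc
  have hcc : Continuous (fun x => ψ x ^ 2 + φ x ^ 2) :=
    (hψ.continuous.pow 2).add (hφ.continuous.pow 2)
  have j1 : Integrable (fun x => (ψ x ^ 2 + φ x ^ 2) * (P x * η x ^ 2)) :=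
    (hcc.mul (hPc.mul hη2.continuous)).integrable_of_hasCompactSupport (hc2.mul_left.mul_left)
  have j2 : Integrable (fun x => (ψ x ^ 2 + φ x ^ 2) * gs η x) :=
    (hcc.mul (continuous_gs hη)).integrable_of_hasCompactSupport (hcs_gs hc).mul_left
  have j3 : Integrable (gs η) := integrable_gs hη hc
  have j4 : Integrable (fun x => V x * η x ^ 2) :=
    (hV.mul hη2.continuous).integrable_of_hasCompactSupport hc2.mul_left
  have j5 : Integrable (fun x => P x * η x ^ 2) :=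
    (hPc.mul hη2.continuous).integrable_of_hasCompactSupport hc2.mul_left
  set A := ∫ x, (ψ x ^ 2 + φ x ^ 2) * (P x * η x ^ 2) with hA
  set B := ∫ x, (ψ x ^ 2 + φ x ^ 2) * gs η x with hB
  set D := (∫ x, gs η x) + (∫ x, V x * η x ^ 2) + ∫ x, P x * η x ^ 2 with hD
  have key : ∀ δ : ℝ, 0 < δ → A ≤ B + δ * D := by
    intro δ hδ
    have h1 := K_delta hψ hφ hV Wψ Wφ hs hη hc hδ
    have hw0 : ∀ x, 0 < ψ x ^ 2 + φ x ^ 2 + δ := fun x => by positivity
    have hcn : Continuous (fun x => (∑ j, (ψ x * pd j φ x - φ x * pd j ψ x) ^ 2)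
        / (ψ x ^ 2 + φ x ^ 2 + δ)) :=
      (continuous_finsetSum _ fun j _ => ((hψ.continuous.mul (continuous_pd hφ)).sub
        (hφ.continuous.mul (continuous_pd hψ))).pow 2).div (hcc.add continuous_const)
        fun x => (hw0 x).ne'
    have j8 : Integrable (fun x => η x ^ 2 * ((∑ j, (ψ x * pd j φ x - φ x * pd j ψ x) ^ 2)
        / (ψ x ^ 2 + φ x ^ 2 + δ))) :=
      (hη2.continuous.mul hcn).integrable_of_hasCompactSupport hc2.mul_right
    have h2 : ∫ x, ((ψ x ^ 2 + φ x ^ 2) * (P x * η x ^ 2) - δ * (P x * η x ^ 2))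
        ≤ ∫ x, η x ^ 2 * ((∑ j, (ψ x * pd j φ x - φ x * pd j ψ x) ^ 2)
          / (ψ x ^ 2 + φ x ^ 2 + δ)) := by
      refine integral_mono (j1.sub (j5.const_mul δ)) j8 fun x => ?_
      show (ψ x ^ 2 + φ x ^ 2) * (P x * η x ^ 2) - δ * (P x * η x ^ 2)
        ≤ η x ^ 2 * ((∑ j, (ψ x * pd j φ x - φ x * pd j ψ x) ^ 2) / (ψ x ^ 2 + φ x ^ 2 + δ))
      have h3 : P x * (ψ x ^ 2 + φ x ^ 2 - δ)
          ≤ (∑ j, (ψ x * pd j φ x - φ x * pd j ψ x) ^ 2) / (ψ x ^ 2 + φ x ^ 2 + δ) := by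
        rw [le_div_iff₀ (hw0 x)]
        have h4 := hP x
        have h5 : 0 ≤ P x * δ ^ 2 := mul_nonneg (hP0 x) (sq_nonneg _)
        nlinarith
      have h6 := mul_le_mul_of_nonneg_left h3 (sq_nonneg (η x))
      linarith
    have h3 : ∫ x, ((ψ x ^ 2 + φ x ^ 2) * (P x * η x ^ 2) - δ * (P x * η x ^ 2))
        = A - δ * ∫ x, P x * η x ^ 2 := by
      rw [integral_sub j1 (j5.const_mul δ), integral_const_mul]
    have h4 : ∫ x, (ψ x ^ 2 + φ x ^ 2 + δ) * gs η x = B + δ * ∫ x, gs η x := by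
      have e : (fun x => (ψ x ^ 2 + φ x ^ 2 + δ) * gs η x)
          = fun x => (ψ x ^ 2 + φ x ^ 2) * gs η x + δ * gs η x := by funext x; ring
      rw [e, integral_add j2 (j3.const_mul δ), integral_const_mul]
    have h5 : ∫ x, δ * (V x * η x ^ 2) = δ * ∫ x, V x * η x ^ 2 := integral_const_mul _ _
    rw [h4, h5] at h1
    rw [h3] at h2
    rw [hD]
    nlinarith
  by_contra hneg
  push Not at hneg
  rcases le_or_gt D 0 with hD0 | hD0
  · have := key 1 one_pos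
    linarith
  · have h1 := key ((A - B) / (2 * D)) (div_pos (by linarith) (by linarith))
    have h2 : (A - B) / (2 * D) * D = (A - B) / 2 := by field_simp
    rw [h2] at h1
    linarith

end Vale.Agent.P134.H775
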